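import Vale.Agent.Lib.P224.Basic

/-!
# P224: the Clifford value lies below twice the equatorial volume

For every `m ≥ 2` the minimal Clifford product `C_{1,m-1}` satisfies
`Vol(C_{1,m-1}) ≤ sqrt π * |S^m| < 2 * |S^m|`; hence `a_m < 2 |S^m|`.
-/

namespace Vale.Agent.Results.P224.CliffordBelowTwoEquators

open Vale.Agent.Lib.P224

theorem result (m : ℕ) (hm : 2 ≤ m) :
    cliffordVol m 1 ≤ Real.sqrt Real.pi * sphereVol m ∧ cliffordVol m 1 < 2 * sphereVol m :=
  ⟨cliffordVol_one_le m hm, cliffordVol_one_lt_two m hm⟩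

end Vale.Agent.Results.P224.CliffordBelowTwoEquators
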